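import Vale.Agent.P062.A36.Tree

namespace Vale.Agent.P062.A36

theorem ok1101 : t1101.all (check t) = true := by decide +kernel

end Vale.Agent.P062.A36
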