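import Vale.Agent.P062.A36.C0000
import Vale.Agent.P062.A36.C0001
import Vale.Agent.P062.A36.C0010
import Vale.Agent.P062.A36.C0011
import Vale.Agent.P062.A36.C0100
import Vale.Agent.P062.A36.C0101
import Vale.Agent.P062.A36.C0110
import Vale.Agent.P062.A36.C0111
import Vale.Agent.P062.A36.C1000
import Vale.Agent.P062.A36.C1001
import Vale.Agent.P062.A36.C1010
import Vale.Agent.P062.A36.C1011
import Vale.Agent.P062.A36.C1100
import Vale.Agent.P062.A36.C1101
import Vale.Agent.P062.A36.C1110
import Vale.Agent.P062.A36.C1111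

namespace Vale.Agent.P062.A36

theorem ok000 : t000.all (check t) = true :=
  Tr.all_node _ _ _ _ (by decide +kernel) ok0000 ok0001

theorem ok001 : t001.all (check t) = true :=
  Tr.all_node _ _ _ _ (by decide +kernel) ok0010 ok0011

theorem ok010 : t010.all (check t) = true :=
  Tr.all_node _ _ _ _ (by decide +kernel) ok0100 ok0101

theorem ok011 : t011.all (check t) = true :=
  Tr.all_node _ _ _ _ (by decide +kernel) ok0110 ok0111

theorem ok100 : t100.all (check t) = true :=
  Tr.all_node _ _ _ _ (by decide +kernel) ok1000 ok1001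

theorem ok101 : t101.all (check t) = true :=
  Tr.all_node _ _ _ _ (by decide +kernel) ok1010 ok1011

theorem ok110 : t110.all (check t) = true :=
  Tr.all_node _ _ _ _ (by decide +kernel) ok1100 ok1101

theorem ok111 : t111.all (check t) = true :=
  Tr.all_node _ _ _ _ (by decide +kernel) ok1110 ok1111

theorem ok00 : t00.all (check t) = true :=
  Tr.all_node _ _ _ _ (by decide +kernel) ok000 ok001

theorem ok01 : t01.all (check t) = true :=
  Tr.all_node _ _ _ _ (by decide +kernel) ok010 ok011

theorem ok10 : t10.all (check t) = true :=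
  Tr.all_node _ _ _ _ (by decide +kernel) ok100 ok101

theorem ok11 : t11.all (check t) = true :=
  Tr.all_node _ _ _ _ (by decide +kernel) ok110 ok111

theorem ok0 : t0.all (check t) = true :=
  Tr.all_node _ _ _ _ (by decide +kernel) ok00 ok01

theorem ok1 : t1.all (check t) = true :=
  Tr.all_node _ _ _ _ (by decide +kernel) ok10 ok11

theorem ok : t.all (check t) = true :=
  Tr.all_node _ _ _ _ (by decide +kernel) ok0 ok1

theorem wins : MakerWinsWithin Set.univ 36 ∧
    MakerWinsWithin {p : ℤ × ℤ | 0 ≤ p.1 ∧ p.1 < (25 : ℕ) ∧ 0 ≤ p.2 ∧ p.2 < (25 : ℕ)} 36 :=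
  wins_of_cert t ok 36 25 (by decide) (by decide) (by decide +kernel) (by decide +kernel)
    (by decide +kernel) (by decide +kernel)

end Vale.Agent.P062.A36
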